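import Vale.Agent.P181.D.T1_0
import Vale.Agent.P181.D.T1_1
import Vale.Agent.P181.D.T1_2
import Vale.Agent.P181.D.T1_3
import Vale.Agent.P181.D.T1_4
import Vale.Agent.P181.D.T1_5
import Vale.Agent.P181.D.T1_6
import Vale.Agent.P181.D.T1_7
import Vale.Agent.P181.D.T1_8

namespace Vale.Agent.P181.K

noncomputable def lv1 : List Tr := [.leaf 0, t1_1, t1_2, t1_3, t1_4, t1_5, t1_6, t1_7, t1_8, t1_9, t1_10, t1_11, t1_12, t1_13]

end Vale.Agent.P181.K
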