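import Vale.Agent.P181.D.T2_0
import Vale.Agent.P181.D.T2_1
import Vale.Agent.P181.D.T2_2
import Vale.Agent.P181.D.T2_3
import Vale.Agent.P181.D.T2_4
import Vale.Agent.P181.D.T2_5

namespace Vale.Agent.P181.K

noncomputable def lv2 : List Tr := [.leaf 0, t2_1, t2_2, t2_3, t2_4, t2_5, t2_6, t2_7, t2_8, t2_9, t2_10, t2_11, t2_12, t2_13, t2_14, t2_15, t2_16, t2_17, t2_18, t2_19, t2_20, t2_21, t2_22, t2_23, t2_24]

end Vale.Agent.P181.K
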