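import Vale.Agent.P181.D.T3_0

namespace Vale.Agent.P181.K

noncomputable def lv3 : List Tr := [.leaf 0, t3_1, t3_2, t3_3, t3_4, t3_5, t3_6, t3_7, t3_8, t3_9, t3_10, t3_11, t3_12, t3_13, t3_14, t3_15, t3_16, t3_17, t3_18, t3_19, t3_20, t3_21, t3_22, t3_23, t3_24]

end Vale.Agent.P181.K
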